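import Mathlib

/-! Finite algebras, congruences, representable lattices, and expansions by unary maps. -/

namespace Vale.Agent.Lib.P183

universe u v

/-- An algebra on the carrier `α`: a finite list of total finitary operations. -/
structure FinAlg (α : Type u) where
  /-- The list of operations: each is an arity together with its table. -/
  ops : List (Σ k : ℕ, (Fin k → α) → α)

variable {α : Type u}

/-- An equivalence relation is a congruence if it is compatible with every operation. -/
def FinAlg.Compat (A : FinAlg α) (θ : Setoid α) : Prop :=
  ∀ op ∈ A.ops, ∀ x y : Fin op.1 → α, (∀ i, θ.r (x i) (y i)) → θ.r (op.2 x) (op.2 y)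

/-- The congruences of `A`, ordered by inclusion (the order is the one of `Setoid α`). -/
abbrev FinAlg.Con (A : FinAlg α) : Type u := {θ : Setoid α // A.Compat θ}

/-- A partially ordered type `L` is representable if it is order isomorphic to the full lattice of
congruences of an algebra on a finite nonempty set. -/
def Representable (L : Type v) [PartialOrder L] : Prop :=
  ∃ (α : Type) (_ : Fintype α) (_ : Nonempty α) (A : FinAlg α), Nonempty (A.Con ≃o L)

/-- A map `α → α` regarded as an operation of arity one. -/
def unaryOp (f : α → α) : Σ k : ℕ, (Fin k → α) → α := ⟨1, fun x => f (x 0)⟩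

/-- An equivalence relation is compatible with a unary map when the map sends related points to
related points. -/
def UnaryCompat (f : α → α) (θ : Setoid α) : Prop := ∀ x y, θ.r x y → θ.r (f x) (f y)

/-- The expansion of `A` by a list of unary maps. -/
def FinAlg.expand (A : FinAlg α) (fs : List (α → α)) : FinAlg α :=
  ⟨A.ops ++ fs.map unaryOp⟩

theorem FinAlg.compat_expand_iff (A : FinAlg α) (fs : List (α → α)) (θ : Setoid α) :
    (A.expand fs).Compat θ ↔ A.Compat θ ∧ ∀ f ∈ fs, UnaryCompat f θ := by
  constructor
  · intro h
    refine ⟨fun op hop x y hxy => h op ?_ x y hxy, fun f hf x y hxy => ?_⟩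
    · exact List.mem_append_left _ hop
    · have hmem : unaryOp f ∈ (A.expand fs).ops :=
        List.mem_append_right _ (List.mem_map_of_mem hf)
      exact h (unaryOp f) hmem (fun _ => x) (fun _ => y) (fun _ => hxy)
  · rintro ⟨h1, h2⟩ op hop x y hxy
    rcases List.mem_append.1 hop with hop | hop
    · exact h1 op hop x y hxy
    · obtain ⟨f, hf, rfl⟩ := List.mem_map.1 hop
      exact h2 f hf _ _ (hxy (0 : Fin 1))

/-- The maps used to cut a congruence lattice along the pair `(a, m)`: constant on the classes of
`m`, with image inside a single class of `a`. -/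
def FoldMap (a m : Setoid α) (f : α → α) : Prop :=
  (∀ x y, m.r x y → f x = f y) ∧ ∀ x y, a.r (f x) (f y)

/-- The key computation: an equivalence relation is compatible with all fold maps of `(a, m)`
iff it lies below `m` or above `a`. -/
theorem compat_foldMaps_iff (a m θ : Setoid α) :
    (∀ f, FoldMap a m f → UnaryCompat f θ) ↔ (θ ≤ m ∨ a ≤ θ) := by
  classical
  constructor
  · intro h
    by_cases hθ : θ ≤ m
    · exact Or.inl hθ
    · right
      have : ∃ x y, θ.r x y ∧ ¬ m.r x y := by
        by_contra hcon
        exact hθ (fun x y hxy => by
          by_contra hn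
          exact hcon ⟨x, y, hxy, hn⟩)
      obtain ⟨x, y, hxy, hnm⟩ := this
      intro u v huv
      let f : α → α := fun z => if m.r z x then u else v
      have hf : FoldMap a m f := by
        refine ⟨fun z w hzw => ?_, fun z w => ?_⟩
        · have : m.r z x ↔ m.r w x :=
            ⟨fun h1 => m.trans' (m.symm' hzw) h1, fun h1 => m.trans' hzw h1⟩
          simp only [f, this]
        · simp only [f]
          split_ifs
          · exact a.refl' u
          · exact huv
          · exact a.symm' huv
          · exact a.refl' v
      have := h f hf x y hxy
      have hfx : f x = u := by simp [f]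
      have hfy : f y = v := by
        have : ¬ m.r y x := fun h1 => hnm (m.symm' h1)
        simp [f, this]
      rwa [hfx, hfy] at this
  · rintro (h | h) f hf x y hxy
    · rw [hf.1 x y (h hxy)]
    · exact h (hf.2 x y)

/-- **Carving theorem.** For any family of pairs `(a i, m i)` of equivalence relations on a finite
set, any algebra `A` has an expansion by unary maps whose congruences are exactly the congruences
`θ` of `A` such that for each `i`, `θ ≤ m i` or `a i ≤ θ`. -/
theorem exists_carved_expansion [Finite α] (A : FinAlg α) {ι : Type*} (a m : ι → Setoid α) :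
    ∃ fs : List (α → α), ∀ θ : Setoid α,
      (A.expand fs).Compat θ ↔ A.Compat θ ∧ ∀ i, θ ≤ m i ∨ a i ≤ θ := by
  classical
  have hfin : (Set.univ : Set (α → α)).Finite := Set.finite_univ
  let S : Set (α → α) := {f | ∃ i, FoldMap (a i) (m i) f}
  have hS : S.Finite := hfin.subset (Set.subset_univ _)
  refine ⟨hS.toFinset.toList, fun θ => ?_⟩
  rw [FinAlg.compat_expand_iff]
  refine and_congr_right fun _ => ?_
  constructor
  · intro h i
    refine (compat_foldMaps_iff (a i) (m i) θ).1 fun f hf => h f ?_
    simp only [Finset.mem_toList, Set.Finite.mem_toFinset]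
    exact ⟨i, hf⟩
  · intro h f hf
    simp only [Finset.mem_toList, Set.Finite.mem_toFinset] at hf
    obtain ⟨i, hi⟩ := hf
    exact (compat_foldMaps_iff (a i) (m i) θ).2 (h i) f hi

end Vale.Agent.Lib.P183
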