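import Vale.Agent.Lib.P183.Basic

/-! Closure properties of representable lattices obtained from the carving theorem. -/

namespace Vale.Agent.Lib.P183

universe u v w

/-- Representability is invariant under order isomorphism. -/
theorem Representable.of_orderIso {K : Type v} {L : Type w} [PartialOrder K] [PartialOrder L]
    (h : Representable K) (e : K ≃o L) : Representable L := by
  obtain ⟨α, i1, i2, A, ⟨f⟩⟩ := h
  exact ⟨α, i1, i2, A, ⟨f.trans e⟩⟩

/-- **Carving for representable lattices.** If `K` is representable, then so is every subset of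
`K` of the form `{x | ∀ i, x ≤ m i ∨ a i ≤ x}`. -/
theorem Representable.carve {K : Type v} [PartialOrder K] (h : Representable K)
    {ι : Type*} (a m : ι → K) : Representable {x : K // ∀ i, x ≤ m i ∨ a i ≤ x} := by
  obtain ⟨α, i1, i2, A, ⟨e⟩⟩ := h
  have : Finite α := Finite.of_fintype α
  obtain ⟨fs, hfs⟩ := exists_carved_expansion A
    (fun i => ((e.symm (a i)).1 : Setoid α)) (fun i => ((e.symm (m i)).1 : Setoid α))
  refine ⟨α, i1, i2, A.expand fs, ⟨?_⟩⟩
  have hcon : ∀ θ : (A.expand fs).Con, A.Compat θ.1 := fun θ => ((hfs θ.1).1 θ.2).1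
  refine
    { toFun := fun θ => ⟨e ⟨θ.1, hcon θ⟩, fun i => ?_⟩
      invFun := fun x => ⟨(e.symm x.1).1, (hfs _).2 ⟨(e.symm x.1).2, fun i => ?_⟩⟩
      left_inv := fun θ => ?_
      right_inv := fun x => ?_
      map_rel_iff' := ?_ }
  · rcases ((hfs θ.1).1 θ.2).2 i with h1 | h1
    · left
      have : (⟨θ.1, hcon θ⟩ : A.Con) ≤ e.symm (m i) := h1
      simpa using e.monotone this
    · right
      have : e.symm (a i) ≤ (⟨θ.1, hcon θ⟩ : A.Con) := h1
      simpa using e.monotone this
  · rcases x.2 i with h1 | h1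
    · exact Or.inl (e.symm.monotone h1)
    · exact Or.inr (e.symm.monotone h1)
  · simp
  · simp
  · intro θ₁ θ₂
    simp only [Equiv.coe_fn_mk, Subtype.mk_le_mk, OrderIso.le_iff_le]
    rfl

/-- Carving along a single pair: `K` representable implies `↓m ∪ ↑a` representable. -/
theorem Representable.carve_one {K : Type v} [PartialOrder K] (h : Representable K) (a m : K) :
    Representable {x : K // x ≤ m ∨ a ≤ x} := by
  have h1 := h.carve (ι := Unit) (fun _ => a) (fun _ => m)
  exact h1.of_orderIso
    { toFun := fun x => ⟨x.1, x.2 ()⟩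
      invFun := fun x => ⟨x.1, fun _ => x.2⟩
      left_inv := fun _ => rfl
      right_inv := fun _ => rfl
      map_rel_iff' := Iff.rfl }

section Product

variable {α β : Type}

/-- The operations on a product: coordinatewise lifts and the maps freezing one coordinate. -/
noncomputable def prodOps (A : FinAlg α) (B : FinAlg β) (a₀ : α) (b₀ : β) [Fintype α] [Fintype β] :
    FinAlg (α × β) :=
  ⟨(A.ops.map fun op => (⟨op.1, fun v => (op.2 (fun i => (v i).1), b₀)⟩ :
      Σ k : ℕ, (Fin k → α × β) → α × β)) ++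
    (B.ops.map fun op => (⟨op.1, fun v => (a₀, op.2 (fun i => (v i).2))⟩ :
      Σ k : ℕ, (Fin k → α × β) → α × β)) ++
    ((Finset.univ : Finset β).toList.map fun b => unaryOp fun p : α × β => (p.1, b)) ++
    ((Finset.univ : Finset α).toList.map fun a => unaryOp fun p : α × β => (a, p.2))⟩

/-- The coordinate relation of an equivalence relation on a product, first coordinate. -/
def fstSetoid (b₀ : β) (θ : Setoid (α × β)) : Setoid α :=
  ⟨fun x y => θ.r (x, b₀) (y, b₀),
    ⟨fun _ => θ.refl' _, fun h => θ.symm' h, fun h1 h2 => θ.trans' h1 h2⟩⟩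

/-- The coordinate relation of an equivalence relation on a product, second coordinate. -/
def sndSetoid (a₀ : α) (θ : Setoid (α × β)) : Setoid β :=
  ⟨fun x y => θ.r (a₀, x) (a₀, y),
    ⟨fun _ => θ.refl' _, fun h => θ.symm' h, fun h1 h2 => θ.trans' h1 h2⟩⟩

/-- The product of two equivalence relations. -/
def prodSetoid (s : Setoid α) (t : Setoid β) : Setoid (α × β) :=
  ⟨fun p q => s.r p.1 q.1 ∧ t.r p.2 q.2,
    ⟨fun _ => ⟨s.refl' _, t.refl' _⟩, fun h => ⟨s.symm' h.1, t.symm' h.2⟩,
      fun h1 h2 => ⟨s.trans' h1.1 h2.1, t.trans' h1.2 h2.2⟩⟩⟩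

variable [Fintype α] [Fintype β]

theorem prod_compat_prodSetoid (A : FinAlg α) (B : FinAlg β) (a₀ : α) (b₀ : β)
    {s : Setoid α} {t : Setoid β} (hs : A.Compat s) (ht : B.Compat t) :
    (prodOps A B a₀ b₀).Compat (prodSetoid s t) := by
  intro op hop x y hxy
  simp only [prodOps, List.mem_append, List.mem_map] at hop
  rcases hop with ((⟨o, ho, rfl⟩ | ⟨o, ho, rfl⟩) | ⟨b, _, rfl⟩) | ⟨a, _, rfl⟩
  · exact ⟨hs o ho _ _ fun i => (hxy i).1, t.refl' _⟩
  · exact ⟨s.refl' _, ht o ho _ _ fun i => (hxy i).2⟩
  · exact ⟨(hxy (0 : Fin 1)).1, t.refl' _⟩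
  · exact ⟨s.refl' _, (hxy (0 : Fin 1)).2⟩

section
variable {A : FinAlg α} {B : FinAlg β} {a₀ : α} {b₀ : β} {θ : Setoid (α × β)}

theorem freeze_snd (h : (prodOps A B a₀ b₀).Compat θ) (b : β) {p q : α × β} (hpq : θ.r p q) :
    θ.r (p.1, b) (q.1, b) := by
  have hmem : unaryOp (fun p : α × β => (p.1, b)) ∈ (prodOps A B a₀ b₀).ops := by
    simp only [prodOps, List.mem_append, List.mem_map]
    exact Or.inl (Or.inr ⟨b, by simp, rfl⟩)
  exact h _ hmem (fun _ => p) (fun _ => q) (fun _ => hpq)

theorem freeze_fst (h : (prodOps A B a₀ b₀).Compat θ) (a : α) {p q : α × β} (hpq : θ.r p q) :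
    θ.r (a, p.2) (a, q.2) := by
  have hmem : unaryOp (fun p : α × β => (a, p.2)) ∈ (prodOps A B a₀ b₀).ops := by
    simp only [prodOps, List.mem_append, List.mem_map]
    exact Or.inr ⟨a, by simp, rfl⟩
  exact h _ hmem (fun _ => p) (fun _ => q) (fun _ => hpq)

theorem eq_prodSetoid (h : (prodOps A B a₀ b₀).Compat θ) :
    θ = prodSetoid (fstSetoid b₀ θ) (sndSetoid a₀ θ) := by
  ext p q
  constructor
  · intro hpq
    exact ⟨freeze_snd h b₀ hpq, freeze_fst h a₀ hpq⟩
  · rintro ⟨h1, h2⟩
    have h3 : θ.r (p.1, p.2) (q.1, p.2) := freeze_snd h p.2 (p := (p.1, b₀)) (q := (q.1, b₀)) h1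
    have h4 : θ.r (q.1, p.2) (q.1, q.2) := freeze_fst h q.1 (p := (a₀, p.2)) (q := (a₀, q.2)) h2
    exact θ.trans' h3 h4

theorem compat_fstSetoid (h : (prodOps A B a₀ b₀).Compat θ) : A.Compat (fstSetoid b₀ θ) := by
  intro op hop x y hxy
  have hmem : (⟨op.1, fun v => (op.2 (fun i => (v i).1), b₀)⟩ :
      Σ k : ℕ, (Fin k → α × β) → α × β) ∈ (prodOps A B a₀ b₀).ops := by
    simp only [prodOps, List.mem_append, List.mem_map]
    exact Or.inl (Or.inl (Or.inl ⟨op, hop, rfl⟩))
  exact h _ hmem (fun i => (x i, b₀)) (fun i => (y i, b₀)) hxy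

theorem compat_sndSetoid (h : (prodOps A B a₀ b₀).Compat θ) : B.Compat (sndSetoid a₀ θ) := by
  intro op hop x y hxy
  have hmem : (⟨op.1, fun v => (a₀, op.2 (fun i => (v i).2))⟩ :
      Σ k : ℕ, (Fin k → α × β) → α × β) ∈ (prodOps A B a₀ b₀).ops := by
    simp only [prodOps, List.mem_append, List.mem_map]
    exact Or.inl (Or.inl (Or.inr ⟨op, hop, rfl⟩))
  exact h _ hmem (fun i => (a₀, x i)) (fun i => (a₀, y i)) hxy

end

/-- The congruence lattice of the product algebra is the product of the congruence lattices. -/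
noncomputable def prodConIso (A : FinAlg α) (B : FinAlg β) (a₀ : α) (b₀ : β) :
    (prodOps A B a₀ b₀).Con ≃o A.Con × B.Con where
  toFun θ := (⟨fstSetoid b₀ θ.1, compat_fstSetoid θ.2⟩, ⟨sndSetoid a₀ θ.1, compat_sndSetoid θ.2⟩)
  invFun p := ⟨prodSetoid p.1.1 p.2.1, prod_compat_prodSetoid A B a₀ b₀ p.1.2 p.2.2⟩
  left_inv θ := Subtype.ext (eq_prodSetoid θ.2).symm
  right_inv p := by
    rcases p with ⟨⟨s, hs⟩, ⟨t, ht⟩⟩
    refine Prod.ext (Subtype.ext ?_) (Subtype.ext ?_)
    · ext x y
      exact ⟨fun h => h.1, fun h => ⟨h, t.refl' _⟩⟩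
    · ext x y
      exact ⟨fun h => h.2, fun h => ⟨s.refl' _, h⟩⟩
  map_rel_iff' := by
    intro θ₁ θ₂
    constructor
    · rintro ⟨h1, h2⟩
      rw [← Subtype.coe_le_coe, eq_prodSetoid θ₁.2, eq_prodSetoid θ₂.2]
      intro p q hpq
      exact ⟨h1 hpq.1, h2 hpq.2⟩
    · intro h
      exact ⟨fun x y hxy => h hxy, fun x y hxy => h hxy⟩

end Product

/-- Representable lattices are closed under direct products. -/
theorem Representable.prod {K : Type v} {L : Type w} [PartialOrder K] [PartialOrder L]
    (hK : Representable K) (hL : Representable L) : Representable (K × L) := by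
  obtain ⟨α, i1, ⟨a₀⟩, A, ⟨e⟩⟩ := hK
  obtain ⟨β, i3, ⟨b₀⟩, B, ⟨f⟩⟩ := hL
  exact ⟨α × β, inferInstance, ⟨(a₀, b₀)⟩, prodOps A B a₀ b₀,
    ⟨(prodConIso A B a₀ b₀).trans
      { toFun := fun p => (e p.1, f p.2)
        invFun := fun p => (e.symm p.1, f.symm p.2)
        left_inv := fun p => by simp
        right_inv := fun p => by simp
        map_rel_iff' := by
          intro p q
          simp [Prod.le_def] }⟩⟩

/-- The two-element chain is representable: it is the lattice of all equivalence relations on a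
two-element set. -/
theorem representable_fin_two : Representable (Fin 2) := by
  classical
  refine ⟨Fin 2, inferInstance, ⟨0⟩, ⟨[]⟩, ⟨?_⟩⟩
  have hcase : ∀ θ : Setoid (Fin 2), θ.r 0 1 → ∀ x y, θ.r x y := by
    intro θ h x y
    have h' : θ.r 1 0 := θ.symm' h
    have hx : x = 0 ∨ x = 1 := by omega
    have hy : y = 0 ∨ y = 1 := by omega
    rcases hx with rfl | rfl <;> rcases hy with rfl | rfl
    · exact θ.refl' _
    · exact h
    · exact h'
    · exact θ.refl' _
  have hbot : ∀ θ : Setoid (Fin 2), ¬ θ.r 0 1 → ∀ x y, θ.r x y → x = y := by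
    intro θ h x y hxy
    have h' : ¬ θ.r 1 0 := fun h1 => h (θ.symm' h1)
    have hx : x = 0 ∨ x = 1 := by omega
    have hy : y = 0 ∨ y = 1 := by omega
    rcases hx with rfl | rfl <;> rcases hy with rfl | rfl
    · rfl
    · exact absurd hxy h
    · exact absurd hxy h'
    · rfl
  let topC : (⟨[]⟩ : FinAlg (Fin 2)).Con := ⟨⊤, fun op hop => by simp at hop⟩
  let botC : (⟨[]⟩ : FinAlg (Fin 2)).Con := ⟨⊥, fun op hop => by simp at hop⟩
  have hbot01 : ¬ (⊥ : Setoid (Fin 2)).r 0 1 := by
    intro h
    have : (0 : Fin 2) = 1 := h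
    exact absurd this (by decide)
  have htop01 : (⊤ : Setoid (Fin 2)).r 0 1 := trivial
  refine
    { toFun := fun θ => if θ.1.r 0 1 then 1 else 0
      invFun := fun i => if i = 0 then botC else topC
      left_inv := ?_
      right_inv := ?_
      map_rel_iff' := ?_ }
  · rintro ⟨θ, hθ⟩
    apply Subtype.ext
    by_cases h : θ.r 0 1
    · simp only [h, if_true]
      have : (1 : Fin 2) ≠ 0 := by decide
      simp only [this, if_false, topC]
      ext x y
      exact ⟨fun _ => hcase θ h x y, fun _ => trivial⟩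
    · simp only [h, if_false, if_true, botC]
      ext x y
      constructor
      · intro hxy
        have hxy' : x = y := hxy
        rw [hxy']
      · intro hxy
        exact hbot θ h x y hxy
  · intro i
    have hi : i = 0 ∨ i = 1 := by omega
    rcases hi with rfl | rfl
    · simp only [botC, hbot01, if_false]
    · simp only [if_false, topC, htop01, if_true]
  · rintro ⟨θ₁, h₁⟩ ⟨θ₂, h₂⟩
    by_cases h1 : θ₁.r 0 1 <;> by_cases h2 : θ₂.r 0 1
    · simp only [Equiv.coe_fn_mk, h1, h2, if_true, le_refl, true_iff]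
      intro x y _
      exact hcase θ₂ h2 x y
    · simp only [Equiv.coe_fn_mk, h1, h2, if_true, if_false]
      constructor
      · intro h
        exact absurd h (by decide)
      · intro h
        exact absurd (h h1) h2
    · simp only [Equiv.coe_fn_mk, h1, h2, if_true, if_false]
      constructor
      · intro _ x y hxy
        rw [hbot θ₁ h1 x y hxy]
      · intro _
        decide
    · simp only [Equiv.coe_fn_mk, h1, h2, if_false, le_refl, true_iff]
      intro x y hxy
      rw [hbot θ₁ h1 x y hxy]

/-- A representable lattice has a top element in the sense needed below. -/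
theorem Representable.exists_top {K : Type v} [PartialOrder K] (h : Representable K) :
    ∃ t : K, ∀ x, x ≤ t := by
  obtain ⟨α, _, _, A, ⟨e⟩⟩ := h
  refine ⟨e ⟨⊤, fun op _ x y _ => trivial⟩, fun x => ?_⟩
  rw [← e.symm_apply_le]
  exact fun _ _ _ => trivial

/-- A representable lattice has a bottom element in the sense needed below. -/
theorem Representable.exists_bot {K : Type v} [PartialOrder K] (h : Representable K) :
    ∃ t : K, ∀ x, t ≤ x := by
  obtain ⟨α, _, _, A, ⟨e⟩⟩ := h
  refine ⟨e ⟨⊥, fun op _ x y hxy => ?_⟩, fun x => ?_⟩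
  · have : x = y := funext hxy
    rw [this]
  · rw [← e.le_symm_apply]
    intro u v huv
    have : u = v := huv
    rw [this]

/-- **Doubling a principal filter.** If `K` is representable and `a : K`, then the lattice obtained
from `K` by adding a new copy of the filter `↑a` on top of it (the subset of `K × Fin 2` of the
pairs `(x, 0)` and of the pairs `(x, 1)` with `a ≤ x`) is representable. -/
theorem Representable.double_filter {K : Type v} [PartialOrder K] (h : Representable K) (a : K) :
    Representable {p : K × Fin 2 // p.2 = 0 ∨ a ≤ p.1} := by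
  obtain ⟨t, ht⟩ := h.exists_top
  have h1 := (h.prod representable_fin_two).carve_one (a, 1) (t, 0)
  refine h1.of_orderIso
    { toFun := fun x => ⟨x.1, ?_⟩
      invFun := fun x => ⟨x.1, ?_⟩
      left_inv := fun _ => rfl
      right_inv := fun _ => rfl
      map_rel_iff' := Iff.rfl }
  · rcases x.2 with h2 | h2
    · left
      have := h2.2
      simpa [Fin.le_def] using this
    · exact Or.inr h2.1
  · rcases x.2 with h2 | h2
    · left
      exact ⟨ht _, by simp [h2]⟩
    · by_cases h3 : x.1.2 = 0
      · left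
        exact ⟨ht _, by simp [h3]⟩
      · right
        refine ⟨h2, ?_⟩
        have : x.1.2 = 1 := by
          have := x.1.2.2
          apply Fin.ext
          have h4 : x.1.2.val ≠ 0 := fun h5 => h3 (Fin.ext h5)
          simp only [Fin.val_one]
          omega
        rw [this]

/-- **Doubling a principal ideal.** If `K` is representable and `b : K`, then the lattice obtained
from `K` by adding a new copy of the ideal `↓b` below it (the subset of `K × Fin 2` of the pairs
`(x, 1)` and of the pairs `(x, 0)` with `x ≤ b`) is representable. -/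
theorem Representable.double_ideal {K : Type v} [PartialOrder K] (h : Representable K) (b : K) :
    Representable {p : K × Fin 2 // p.2 = 1 ∨ p.1 ≤ b} := by
  obtain ⟨t, ht⟩ := h.exists_bot
  have h1 := (h.prod representable_fin_two).carve_one (t, 1) (b, 0)
  refine h1.of_orderIso
    { toFun := fun x => ⟨x.1, ?_⟩
      invFun := fun x => ⟨x.1, ?_⟩
      left_inv := fun _ => rfl
      right_inv := fun _ => rfl
      map_rel_iff' := Iff.rfl }
  · rcases x.2 with h2 | h2
    · exact Or.inr h2.1
    · left
      have := h2.2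
      have h3 : x.1.2.val = 1 := by
        have h4 := x.1.2.2
        have h5 : (1 : ℕ) ≤ x.1.2.val := by simpa [Fin.le_def] using this
        omega
      exact Fin.ext (by simpa using h3)
  · rcases x.2 with h2 | h2
    · right
      exact ⟨ht _, by simp [h2]⟩
    · by_cases h3 : x.1.2 = 0
      · left
        exact ⟨h2, by simp [h3]⟩
      · right
        refine ⟨ht _, ?_⟩
        have h5 : x.1.2 = 1 := by omega
        simp [h5]

/-- A representable partial order is finite. -/
theorem Representable.finite {K : Type v} [PartialOrder K] (h : Representable K) : Finite K := by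
  obtain ⟨α, _, _, A, ⟨e⟩⟩ := h
  have h1 : Finite (α → α → Prop) := inferInstance
  have h2 : Finite (Setoid α) := Finite.of_injective (fun θ : Setoid α => θ.r) (by
    intro θ₁ θ₂ h12
    exact Setoid.ext_iff.2 (fun x y => by
      have := congrFun (congrFun h12 x) y
      simp only at this
      rw [show θ₁ x y ↔ θ₂ x y from by simpa using this]))
  have h3 : Finite A.Con := inferInstance
  exact Finite.of_equiv _ e.toEquiv

section Distrib

variable {K : Type v} [Lattice K] [BoundedOrder K] [Finite K]

/-- Finite suprema of elements of a sublattice containing the bottom stay in it. -/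
theorem finset_sup_mem (S : Sublattice K) (hbot : ⊥ ∈ S) (F : Finset K) (hF : ∀ s ∈ F, s ∈ S) :
    F.sup id ∈ S := by
  classical
  induction F using Finset.induction_on with
  | empty => simpa using hbot
  | insert b F _ ih =>
    rw [Finset.sup_insert]
    exact S.supClosed (hF b (Finset.mem_insert_self _ _))
      (ih fun s hs => hF s (Finset.mem_insert_of_mem hs))

/-- Finite infima of elements of a sublattice containing the top stay in it. -/
theorem finset_inf_mem (S : Sublattice K) (htop : ⊤ ∈ S) (F : Finset K) (hF : ∀ s ∈ F, s ∈ S) :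
    F.inf id ∈ S := by
  classical
  induction F using Finset.induction_on with
  | empty => simpa using htop
  | insert b F _ ih =>
    rw [Finset.inf_insert]
    exact S.infClosed (hF b (Finset.mem_insert_self _ _))
      (ih fun s hs => hF s (Finset.mem_insert_of_mem hs))

/-- In a distributive sublattice with bottom and top, any element `x` outside the sublattice is
separated from the sublattice by a pair `(a, m)`. -/
theorem exists_separating_pair (S : Sublattice K) (hbot : ⊥ ∈ S) (htop : ⊤ ∈ S)
    (hdist : ∀ x ∈ S, ∀ y ∈ S, ∀ z ∈ S, x ⊓ (y ⊔ z) = (x ⊓ y) ⊔ (x ⊓ z))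
    {x : K} (hx : x ∉ S) :
    ∃ a m : K, (∀ s ∈ S, s ≤ m ∨ a ≤ s) ∧ ¬ x ≤ m ∧ ¬ a ≤ x := by
  classical
  have := Fintype.ofFinite K
  -- the lower and upper approximations of `x` in `S`
  set L : Finset K := Finset.univ.filter (fun s => s ∈ S ∧ s ≤ x) with hL
  set U : Finset K := Finset.univ.filter (fun s => s ∈ S ∧ x ≤ s) with hU
  set l := L.sup id with hl
  set u := U.inf id with hu
  have hlS : l ∈ S := finset_sup_mem S hbot L (fun s hs => (Finset.mem_filter.1 hs).2.1)
  have huS : u ∈ S := finset_inf_mem S htop U (fun s hs => (Finset.mem_filter.1 hs).2.1)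
  have hlx : l ≤ x := Finset.sup_le fun s hs => (Finset.mem_filter.1 hs).2.2
  have hxu : x ≤ u := Finset.le_inf fun s hs => (Finset.mem_filter.1 hs).2.2
  have hl_max : ∀ s ∈ S, s ≤ x → s ≤ l := fun s hs hsx =>
    Finset.le_sup (f := id) (Finset.mem_filter.2 ⟨Finset.mem_univ _, hs, hsx⟩)
  have hu_min : ∀ s ∈ S, x ≤ s → u ≤ s := fun s hs hsx =>
    Finset.inf_le (f := id) (Finset.mem_filter.2 ⟨Finset.mem_univ _, hs, hsx⟩)
  -- choose `a` minimal with `a ≤ u`, `a ≰ l`
  let T : Set K := {s | s ∈ S ∧ s ≤ u ∧ ¬ s ≤ l}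
  have hTne : T.Nonempty := by
    refine ⟨u, huS, le_refl _, fun h => hx ?_⟩
    have : x = u := le_antisymm hxu (h.trans hlx)
    rw [this]
    exact huS
  obtain ⟨a, haT, hamin⟩ :=
    (Finite.wellFounded_of_trans_of_irrefl (α := K) (· < ·)).has_min T hTne
  obtain ⟨haS, hau, hal⟩ := haT
  -- the complementary maximum
  set M : Finset K := Finset.univ.filter (fun s => s ∈ S ∧ ¬ a ≤ s) with hM
  set m := M.sup id with hm
  have hmS : m ∈ S := finset_sup_mem S hbot M (fun s hs => (Finset.mem_filter.1 hs).2.1)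
  have key : ∀ F : Finset K, (∀ s ∈ F, s ∈ S ∧ ¬ a ≤ s) → a ⊓ F.sup id ≤ l := by
    intro F
    induction F using Finset.induction_on with
    | empty => intro _; simp
    | insert b F _ ih =>
      intro hF
      have hb := hF b (Finset.mem_insert_self _ _)
      have hF' : ∀ s ∈ F, s ∈ S ∧ ¬ a ≤ s := fun s hs => hF s (Finset.mem_insert_of_mem hs)
      have hsupS : F.sup id ∈ S := finset_sup_mem S hbot F (fun s hs => (hF' s hs).1)
      rw [Finset.sup_insert, id, hdist a haS b hb.1 _ hsupS]
      refine sup_le ?_ (ih hF')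
      by_contra hcon
      have hmem : a ⊓ b ∈ T := ⟨S.infClosed haS hb.1, inf_le_left.trans hau, hcon⟩
      refine hamin _ hmem (lt_of_le_of_ne inf_le_left fun heq => hb.2 ?_)
      rw [← heq]
      exact inf_le_right
  have ham : ¬ a ≤ m := by
    intro h
    have h1 := key M (fun s hs => (Finset.mem_filter.1 hs).2)
    rw [inf_eq_left.2 h] at h1
    exact hal h1
  refine ⟨a, m, fun s hs => ?_, fun h => ham (hau.trans (hu_min m hmS h)), fun h => hal
    (hl_max a haS h)⟩
  by_cases h : a ≤ s
  · exact Or.inr h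
  · exact Or.inl (Finset.le_sup (f := id) (Finset.mem_filter.2 ⟨Finset.mem_univ _, hs, h⟩))

end Distrib

/-- **Distributive sublattices.** If a lattice `K` with bottom and top is representable, then so is
every distributive sublattice of `K` containing its bottom and top. -/
theorem Representable.distrib_sublattice {K : Type v} [Lattice K] [BoundedOrder K]
    (hK : Representable K) (S : Sublattice K) (hbot : ⊥ ∈ S) (htop : ⊤ ∈ S)
    (hdist : ∀ x ∈ S, ∀ y ∈ S, ∀ z ∈ S, x ⊓ (y ⊔ z) = (x ⊓ y) ⊔ (x ⊓ z)) :
    Representable S := by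
  have := hK.finite
  let ι := {p : K × K // ∀ s ∈ S, s ≤ p.2 ∨ p.1 ≤ s}
  have h1 := hK.carve (ι := ι) (fun p => p.1.1) (fun p => p.1.2)
  have hiff : ∀ x : K, (∀ i : ι, x ≤ i.1.2 ∨ i.1.1 ≤ x) ↔ x ∈ S := by
    intro x
    constructor
    · intro h
      by_contra hx
      obtain ⟨a, m, hS, hxm, hax⟩ := exists_separating_pair S hbot htop hdist hx
      rcases h ⟨(a, m), hS⟩ with h2 | h2
      · exact hxm h2
      · exact hax h2
    · intro hx i
      exact i.2 x hx
  exact h1.of_orderIso
    { toFun := fun x => ⟨x.1, (hiff x.1).1 x.2⟩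
      invFun := fun x => ⟨x.1, (hiff x.1).2 x.2⟩
      left_inv := fun _ => rfl
      right_inv := fun _ => rfl
      map_rel_iff' := Iff.rfl }

end Vale.Agent.Lib.P183
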