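import Vale.Agent.Lib.P183.Closure

/-! Intervals above a subgroup of a finite group are representable (the left translations of the
coset space form an algebra whose congruences are the intermediate subgroups). -/

namespace Vale.Agent.Lib.P183

variable {G : Type} [Group G] (H : Subgroup G)

/-- The equivalence relation on cosets attached to an intermediate subgroup. -/
def cosetSetoid (K : Subgroup G) : Setoid (G ⧸ H) where
  r x y := x.out⁻¹ * y.out ∈ K
  iseqv :=
    { refl := fun x => by simp [K.one_mem]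
      symm := fun {x y} h => by
        have := K.inv_mem h
        simpa using this
      trans := fun {x y z} h1 h2 => by
        have := K.mul_mem h1 h2
        simpa [mul_assoc] using this }

variable {H}

theorem cosetSetoid_mk {K : Subgroup G} (hK : H ≤ K) (a b : G) :
    (cosetSetoid H K).r (a : G ⧸ H) (b : G ⧸ H) ↔ a⁻¹ * b ∈ K := by
  have hax : ∃ h ∈ H, ((a : G ⧸ H).out) = a * h := by
    have : (a⁻¹ * (a : G ⧸ H).out) ∈ H := by
      have := QuotientGroup.eq.1 (QuotientGroup.out_eq' (a : G ⧸ H)).symm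
      simpa using this
    exact ⟨_, this, by simp⟩
  have hbx : ∃ h ∈ H, ((b : G ⧸ H).out) = b * h := by
    have : (b⁻¹ * (b : G ⧸ H).out) ∈ H := by
      have := QuotientGroup.eq.1 (QuotientGroup.out_eq' (b : G ⧸ H)).symm
      simpa using this
    exact ⟨_, this, by simp⟩
  obtain ⟨h1, hh1, e1⟩ := hax
  obtain ⟨h2, hh2, e2⟩ := hbx
  show ((a : G ⧸ H).out)⁻¹ * ((b : G ⧸ H).out) ∈ K ↔ _
  rw [e1, e2]
  have : (a * h1)⁻¹ * (b * h2) = h1⁻¹ * (a⁻¹ * b) * h2 := by group
  rw [this]
  constructor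
  · intro h
    have h3 := K.mul_mem (K.mul_mem (hK hh1) h) (K.inv_mem (hK hh2))
    simpa [mul_assoc] using h3
  · intro h
    exact K.mul_mem (K.mul_mem (K.inv_mem (hK hh1)) h) (hK hh2)

/-- The intermediate subgroup attached to an invariant equivalence relation. -/
def stabSubgroup (θ : Setoid (G ⧸ H))
    (hθ : ∀ g : G, ∀ x y : G ⧸ H, θ.r x y → θ.r (g • x) (g • y)) : Subgroup G where
  carrier := {g | θ.r (g • ((1 : G) : G ⧸ H)) ((1 : G) : G ⧸ H)}
  mul_mem' := by
    intro a b ha hb
    have h1 := hθ a _ _ hb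
    have h2 : θ.r ((a * b) • ((1 : G) : G ⧸ H)) (a • ((1 : G) : G ⧸ H)) := by
      rw [mul_smul]; exact h1
    exact θ.trans' h2 ha
  one_mem' := by
    show θ.r _ _
    rw [one_smul]
  inv_mem' := by
    intro a ha
    have h1 := hθ a⁻¹ _ _ ha
    rw [inv_smul_smul] at h1
    exact θ.symm' h1

theorem smul_one_coe (g : G) : g • ((1 : G) : G ⧸ H) = (g : G ⧸ H) := by
  rw [MulAction.Quotient.smul_coe, smul_eq_mul, mul_one]

/-- The algebra on the coset space whose operations are all the left translations. -/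
noncomputable def cosetAlg [Fintype G] (H : Subgroup G) : FinAlg (G ⧸ H) :=
  ⟨(Finset.univ : Finset G).toList.map fun g => unaryOp fun x => g • x⟩

theorem cosetAlg_compat [Fintype G] (θ : Setoid (G ⧸ H)) :
    (cosetAlg H).Compat θ ↔ ∀ g : G, ∀ x y : G ⧸ H, θ.r x y → θ.r (g • x) (g • y) := by
  constructor
  · intro h g x y hxy
    have hmem : unaryOp (fun x : G ⧸ H => g • x) ∈ (cosetAlg H).ops :=
      List.mem_map_of_mem (by simp)
    exact h _ hmem (fun _ => x) (fun _ => y) (fun _ => hxy)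
  · intro h op hop x y hxy
    obtain ⟨g, _, rfl⟩ := List.mem_map.1 hop
    exact h g _ _ (hxy (0 : Fin 1))

theorem cosetSetoid_invariant {K : Subgroup G} (hK : H ≤ K) (g : G) (x y : G ⧸ H)
    (h : (cosetSetoid H K).r x y) : (cosetSetoid H K).r (g • x) (g • y) := by
  induction x using QuotientGroup.induction_on with
  | H a =>
    induction y using QuotientGroup.induction_on with
    | H b =>
      rw [MulAction.Quotient.smul_coe, MulAction.Quotient.smul_coe, smul_eq_mul, smul_eq_mul,
        cosetSetoid_mk hK]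
      have h1 := (cosetSetoid_mk hK a b).1 h
      have : (g * a)⁻¹ * (g * b) = a⁻¹ * b := by group
      rwa [this]

/-- **Pálfy and Pudlák, the easy direction.** The interval above a subgroup of a finite group is
representable. -/
theorem representable_interval [Finite G] (H : Subgroup G) :
    Representable (Set.Icc H (⊤ : Subgroup G)) := by
  classical
  have : Fintype G := Fintype.ofFinite G
  have hfin : Finite (G ⧸ H) := inferInstance
  have : Fintype (G ⧸ H) := Fintype.ofFinite _
  refine ⟨G ⧸ H, inferInstance, inferInstance, cosetAlg H, ⟨?_⟩⟩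
  refine
    { toFun := fun θ => ⟨stabSubgroup θ.1 ((cosetAlg_compat θ.1).1 θ.2), ?_, le_top⟩
      invFun := fun K => ⟨cosetSetoid H K.1, (cosetAlg_compat _).2
        (cosetSetoid_invariant K.2.1)⟩
      left_inv := ?_
      right_inv := ?_
      map_rel_iff' := ?_ }
  · intro h hh
    have hr : ((h : G) • ((1 : G) : G ⧸ H)) = ((1 : G) : G ⧸ H) := by
      rw [smul_one_coe]
      exact (QuotientGroup.eq.2 (by simpa using H.inv_mem hh))
    show θ.1.r _ _
    rw [hr]
  · intro θ
    apply Subtype.ext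
    apply Setoid.ext
    intro x y
    have hinv := (cosetAlg_compat θ.1).1 θ.2
    show ((x.out)⁻¹ * y.out) • ((1 : G) : G ⧸ H) ∈ {z | θ.1.r z _} ↔ _
    have hxo : (x.out : G ⧸ H) = x := QuotientGroup.out_eq' x
    have hyo : (y.out : G ⧸ H) = y := QuotientGroup.out_eq' y
    constructor
    · intro h
      have h1 := hinv x.out _ _ h
      rw [smul_smul, mul_inv_cancel_left, smul_one_coe, smul_one_coe, hxo, hyo] at h1
      exact θ.1.symm' h1
    · intro h
      have h1 := hinv (x.out)⁻¹ _ _ (θ.1.symm' h)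
      have e1 : (x.out)⁻¹ • y = ((x.out)⁻¹ * y.out) • ((1 : G) : G ⧸ H) := by
        rw [mul_smul, smul_one_coe, hyo]
      have e2 : (x.out)⁻¹ • x = ((1 : G) : G ⧸ H) := by
        have e3 : (x.out)⁻¹ • ((x.out : G) : G ⧸ H) = ((1 : G) : G ⧸ H) := by
          rw [MulAction.Quotient.smul_coe, smul_eq_mul, inv_mul_cancel]
        rwa [hxo] at e3
      rw [e1, e2] at h1
      exact h1
  · intro K
    apply Subtype.ext
    ext g
    show (cosetSetoid H K.1).r (g • ((1 : G) : G ⧸ H)) ((1 : G) : G ⧸ H) ↔ g ∈ K.1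
    rw [smul_one_coe, cosetSetoid_mk K.2.1]
    simp
  · intro θ₁ θ₂
    show stabSubgroup θ₁.1 ((cosetAlg_compat θ₁.1).1 θ₁.2) ≤
        stabSubgroup θ₂.1 ((cosetAlg_compat θ₂.1).1 θ₂.2) ↔ θ₁.1 ≤ θ₂.1
    constructor
    · intro h x y hxy
      have hinv₁ := (cosetAlg_compat θ₁.1).1 θ₁.2
      have hinv₂ := (cosetAlg_compat θ₂.1).1 θ₂.2
      have hxo : (x.out : G ⧸ H) = x := QuotientGroup.out_eq' x
      have hyo : (y.out : G ⧸ H) = y := QuotientGroup.out_eq' y
      have h1 := hinv₁ (x.out)⁻¹ _ _ hxy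
      have e1 : (x.out)⁻¹ • y = ((x.out)⁻¹ * y.out) • ((1 : G) : G ⧸ H) := by
        rw [mul_smul, smul_one_coe, hyo]
      have e2 : (x.out)⁻¹ • x = ((1 : G) : G ⧸ H) := by
        have e3 : (x.out)⁻¹ • ((x.out : G) : G ⧸ H) = ((1 : G) : G ⧸ H) := by
          rw [MulAction.Quotient.smul_coe, smul_eq_mul, inv_mul_cancel]
        rwa [hxo] at e3
      rw [e1, e2] at h1
      have h2 : (x.out)⁻¹ * y.out ∈ stabSubgroup θ₁.1 hinv₁ := θ₁.1.symm' h1
      have h3 : (x.out)⁻¹ * y.out ∈ stabSubgroup θ₂.1 hinv₂ := h h2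
      have h4 := hinv₂ x.out _ _ (θ₂.1.symm' h3)
      rw [smul_smul, mul_inv_cancel_left, smul_one_coe, smul_one_coe, hxo, hyo] at h4
      exact h4
    · intro h g hg
      exact h hg

end Vale.Agent.Lib.P183
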