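import Vale.Agent.Lib.P183.Basic

/-! The seven element lattice left open by DeMeo. -/

namespace Vale.Agent.Lib.P183

/-- The order of the seven element lattice on the numbers `0, …, 6`: `0` is the bottom, `6` is the
top, and besides these the only strict relations are `2 < 5`, `3 < 4` and `3 < 5`. -/
def sevenLe (a b : Fin 7) : Prop :=
  a = b ∨ a = 0 ∨ b = 6 ∨ (a = 2 ∧ b = 5) ∨ (a = 3 ∧ b = 4) ∨ (a = 3 ∧ b = 5)

instance : DecidableRel sevenLe := fun a b => by
  unfold sevenLe
  infer_instance

/-- The carrier of the seven element lattice: the atoms are `1, 2, 3`, the coatoms `1, 4, 5`. -/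
def SevenLattice : Type := Fin 7

instance : PartialOrder SevenLattice where
  le := sevenLe
  le_refl := by
    show ∀ a : Fin 7, sevenLe a a
    decide
  le_trans := by
    show ∀ a b c : Fin 7, sevenLe a b → sevenLe b c → sevenLe a c
    decide
  le_antisymm := by
    show ∀ a b : Fin 7, sevenLe a b → sevenLe b a → a = b
    decide

end Vale.Agent.Lib.P183
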